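import Mathlib

namespace Vale.Agent.P080

open Set Filter Topology

def SubK (f : ℝ → ℝ) (I : Set ℝ) (K : ℝ) : Prop :=
  ∀ x ∈ I, ∀ p X : ℝ,
    IsLocalMax (fun t => f t - (p * (t - x) + X / 2 * (t - x) ^ 2)) x → -K ≤ p ^ 2 * X

def SuperK (f : ℝ → ℝ) (I : Set ℝ) (K : ℝ) : Prop :=
  ∀ x ∈ I, ∀ p X : ℝ,
    IsLocalMin (fun t => f t - (p * (t - x) + X / 2 * (t - x) ^ 2)) x → p ^ 2 * X ≤ K

lemma SubK.quad {f : ℝ → ℝ} {I : Set ℝ} {K : ℝ} (h : SubK f I K) {x : ℝ} (hx : x ∈ I)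
    (A B X : ℝ) (hmax : IsLocalMax (fun t => f t - (A + B * t + X / 2 * t ^ 2)) x) :
    -K ≤ (B + X * x) ^ 2 * X := by
  apply h x hx (B + X * x) X
  have h2 : ∀ᶠ t in 𝓝 x, f t - (A + B * t + X / 2 * t ^ 2) ≤ f x - (A + B * x + X / 2 * x ^ 2) := hmax
  show ∀ᶠ t in 𝓝 x, f t - ((B + X * x) * (t - x) + X / 2 * (t - x) ^ 2)
    ≤ f x - ((B + X * x) * (x - x) + X / 2 * (x - x) ^ 2)
  filter_upwards [h2] with t ht
  nlinarith [ht]

lemma SuperK.quad {f : ℝ → ℝ} {I : Set ℝ} {K : ℝ} (h : SuperK f I K) {x : ℝ} (hx : x ∈ I)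
    (A B X : ℝ) (hmin : IsLocalMin (fun t => f t - (A + B * t + X / 2 * t ^ 2)) x) :
    (B + X * x) ^ 2 * X ≤ K := by
  apply h x hx (B + X * x) X
  have h2 : ∀ᶠ t in 𝓝 x, f x - (A + B * x + X / 2 * x ^ 2) ≤ f t - (A + B * t + X / 2 * t ^ 2) := hmin
  show ∀ᶠ t in 𝓝 x, f x - ((B + X * x) * (x - x) + X / 2 * (x - x) ^ 2)
    ≤ f t - ((B + X * x) * (t - x) + X / 2 * (t - x) ^ 2)
  filter_upwards [h2] with t ht
  nlinarith [ht]

lemma SuperK.neg {f : ℝ → ℝ} {I : Set ℝ} {K : ℝ} (h : SuperK f I K) :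
    SubK (fun t => - f t) I K := by
  intro x hx p X hmax
  have h2 : ∀ᶠ t in 𝓝 x, - f t - (p * (t - x) + X / 2 * (t - x) ^ 2)
      ≤ - f x - (p * (x - x) + X / 2 * (x - x) ^ 2) := hmax
  have := h x hx (-p) (-X) (by
    show ∀ᶠ t in 𝓝 x, f x - (-p * (x - x) + -X / 2 * (x - x) ^ 2)
      ≤ f t - (-p * (t - x) + -X / 2 * (t - x) ^ 2)
    filter_upwards [h2] with t ht
    nlinarith [ht])
  nlinarith [this]

lemma SubK.neg {f : ℝ → ℝ} {I : Set ℝ} {K : ℝ} (h : SubK f I K) :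
    SuperK (fun t => - f t) I K := by
  intro x hx p X hmin
  have h2 : ∀ᶠ t in 𝓝 x, - f x - (p * (x - x) + X / 2 * (x - x) ^ 2)
      ≤ - f t - (p * (t - x) + X / 2 * (t - x) ^ 2) := hmin
  have := h x hx (-p) (-X) (by
    show ∀ᶠ t in 𝓝 x, f t - (-p * (t - x) + -X / 2 * (t - x) ^ 2)
      ≤ f x - (-p * (x - x) + -X / 2 * (x - x) ^ 2)
    filter_upwards [h2] with t ht
    nlinarith [ht])
  nlinarith [this]

lemma exists_interior_max {g : ℝ → ℝ} {a b c : ℝ} (hab : a < b) (hbc : b < c)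
    (hg : ContinuousOn g (Icc a c)) (ha : g a ≤ g b) (hc : g c ≤ g b) :
    ∃ t ∈ Ioo a c, IsLocalMax g t := by
  obtain ⟨t, ht, hmax⟩ := isCompact_Icc.exists_isMaxOn (⟨b, hab.le, hbc.le⟩ : (Icc a c).Nonempty) hg
  have hbI : b ∈ Icc a c := ⟨hab.le, hbc.le⟩
  by_cases hta : t = a
  · refine ⟨b, ⟨hab, hbc⟩, ?_⟩
    have : IsMaxOn g (Icc a c) b := fun y hy => le_trans (hmax hy) (hta ▸ ha)
    exact this.isLocalMax (Icc_mem_nhds hab hbc)
  by_cases htc : t = c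
  · refine ⟨b, ⟨hab, hbc⟩, ?_⟩
    have : IsMaxOn g (Icc a c) b := fun y hy => le_trans (hmax hy) (htc ▸ hc)
    exact this.isLocalMax (Icc_mem_nhds hab hbc)
  · have h1 : a < t := lt_of_le_of_ne ht.1 (Ne.symm hta)
    have h2 : t < c := lt_of_le_of_ne ht.2 htc
    exact ⟨t, ⟨h1, h2⟩, hmax.isLocalMax (Icc_mem_nhds h1 h2)⟩

lemma exists_interior_min {g : ℝ → ℝ} {a b c : ℝ} (hab : a < b) (hbc : b < c)
    (hg : ContinuousOn g (Icc a c)) (ha : g b ≤ g a) (hc : g b ≤ g c) :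
    ∃ t ∈ Ioo a c, IsLocalMin g t := by
  obtain ⟨t, ht, hmax⟩ := exists_interior_max (g := fun t => - g t) hab hbc hg.neg
    (by simpa using ha) (by simpa using hc)
  refine ⟨t, ht, ?_⟩
  have := hmax.neg
  simpa using this

lemma forward {f : ℝ → ℝ} {I : Set ℝ} {K : ℝ} (hI : I.OrdConnected) (hf : ContinuousOn f I)
    (hsub : SubK f I K) {a b c s M : ℝ} (ha : a ∈ I) (hc : c ∈ I) (hab : a < b) (hbc : b < c)
    (hM : 0 < M) (hσ : 0 < s - M * (c - a)) (hK : K < (s - M * (c - a)) ^ 2 * M)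
    (hs : s * (b - a) ≤ f b - f a) :
    f b + s * (c - b) - M / 2 * (c - a) * (c - b) < f c := by
  by_contra hcon
  push Not at hcon
  have hIcc : Icc a c ⊆ I := hI.out ha hc
  obtain ⟨t, ht, hmax⟩ := exists_interior_max
    (g := fun t => f t - ((f b - s * b - M / 2 * (a * b)) + (s + M / 2 * (a + b)) * t
      + (-M) / 2 * t ^ 2)) hab hbc
    ((hf.mono hIcc).sub (by fun_prop)) (by nlinarith) (by nlinarith)
  have h0 := hsub.quad (hIcc ⟨ht.1.le, ht.2.le⟩) _ _ _ hmax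
  have h1 : s - M * (c - a) ≤ (s + M / 2 * (a + b)) + -M * t := by nlinarith [ht.1, ht.2]
  have h2 : (s - M * (c - a)) ^ 2 ≤ ((s + M / 2 * (a + b)) + -M * t) ^ 2 := by
    apply pow_le_pow_left₀ hσ.le h1
  nlinarith

lemma backward {f : ℝ → ℝ} {I : Set ℝ} {K : ℝ} (hI : I.OrdConnected) (hf : ContinuousOn f I)
    (hsup : SuperK f I K) {a b c s M : ℝ} (ha : a ∈ I) (hc : c ∈ I) (hab : a < b) (hbc : b < c)
    (hM : 0 < M) (hσ : 0 < s - M * (c - a)) (hK : K < (s - M * (c - a)) ^ 2 * M)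
    (hs : s * (c - b) ≤ f c - f b) :
    f a < f b - s * (b - a) + M / 2 * (b - a) * (c - a) := by
  by_contra hcon
  push Not at hcon
  have hIcc : Icc a c ⊆ I := hI.out ha hc
  obtain ⟨t, ht, hmin⟩ := exists_interior_min
    (g := fun t => f t - ((f b - s * b + M / 2 * (b * c)) + (s - M / 2 * (b + c)) * t
      + M / 2 * t ^ 2)) hab hbc
    ((hf.mono hIcc).sub (by fun_prop)) (by nlinarith) (by nlinarith)
  have h0 := hsup.quad (hIcc ⟨ht.1.le, ht.2.le⟩) _ _ _ hmin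
  have h1 : s - M * (c - a) ≤ (s - M / 2 * (b + c)) + M * t := by nlinarith [ht.1, ht.2]
  have h2 : (s - M * (c - a)) ^ 2 ≤ ((s - M / 2 * (b + c)) + M * t) ^ 2 := by
    apply pow_le_pow_left₀ hσ.le h1
  nlinarith

lemma forward' {f : ℝ → ℝ} {I : Set ℝ} {K : ℝ} (hI : I.OrdConnected) (hf : ContinuousOn f I)
    (hsub : SubK f I K) {a b c s M σ : ℝ} (ha : a ∈ I) (hc : c ∈ I) (hab : a < b) (hbc : b < c)
    (hM : 0 < M) (hσ : 0 < σ) (hK : K < σ ^ 2 * M) (hle : σ ≤ s - M * (c - a))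
    (hs : s * (b - a) ≤ f b - f a) :
    (s - M / 2 * (c - a)) * (c - b) ≤ f c - f b := by
  have h2 : σ ^ 2 ≤ (s - M * (c - a)) ^ 2 := pow_le_pow_left₀ hσ.le hle 2
  have := forward hI hf hsub ha hc hab hbc hM (lt_of_lt_of_le hσ hle)
    (lt_of_lt_of_le hK (by nlinarith)) hs
  nlinarith

lemma backward' {f : ℝ → ℝ} {I : Set ℝ} {K : ℝ} (hI : I.OrdConnected) (hf : ContinuousOn f I)
    (hsup : SuperK f I K) {a b c s M σ : ℝ} (ha : a ∈ I) (hc : c ∈ I) (hab : a < b) (hbc : b < c)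
    (hM : 0 < M) (hσ : 0 < σ) (hK : K < σ ^ 2 * M) (hle : σ ≤ s - M * (c - a))
    (hs : s * (c - b) ≤ f c - f b) :
    (s - M / 2 * (c - a)) * (b - a) ≤ f b - f a := by
  have h2 : σ ^ 2 ≤ (s - M * (c - a)) ^ 2 := pow_le_pow_left₀ hσ.le hle 2
  have := backward hI hf hsup ha hc hab hbc hM (lt_of_lt_of_le hσ hle)
    (lt_of_lt_of_le hK (by nlinarith)) hs
  nlinarith

lemma key {f : ℝ → ℝ} {I : Set ℝ} {K : ℝ} (hI : I.OrdConnected) (hf : ContinuousOn f I)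
    (hsub : SubK f I K) (hsup : SuperK f I K) {L R s M : ℝ} (hL : L ∈ I) (hR : R ∈ I)
    (hM : 0 < M) (hσ : 0 < s - 2 * M * (R - L)) (hK : K < (s - 2 * M * (R - L)) ^ 2 * M)
    {a b : ℝ} (haL : L ≤ a) (hab : a < b) (hbR : b ≤ R) (hs : s * (b - a) ≤ f b - f a)
    {y z : ℝ} (hyL : L ≤ y) (hyz : y < z) (hzR : z ≤ R) :
    (s - 3 / 2 * M * (R - L)) * (z - y) ≤ f z - f y := by
  have hIcc : Icc L R ⊆ I := hI.out hL hR
  have haI : a ∈ I := hIcc ⟨haL, by linarith⟩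
  have hyI : y ∈ I := hIcc ⟨hyL, by linarith⟩
  have hzI : z ∈ I := hIcc ⟨by linarith, hzR⟩
  have hML : 0 ≤ M * (R - L) := mul_nonneg hM.le (by linarith)
  have h1 : (s - M / 2 * (R - L)) * (R - a) ≤ f R - f a := by
    rcases hbR.eq_or_lt with rfl | hbR'
    · nlinarith [mul_nonneg hML (sub_nonneg.2 hab.le)]
    · have := forward' hI hf hsub haI hR hab hbR' hM hσ hK (by nlinarith) hs
      nlinarith [mul_nonneg (mul_nonneg hM.le (sub_nonneg.2 (hab.le.trans hbR)))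
        (by linarith : (0:ℝ) ≤ (R - L) - (R - b))]
  have h2 : (s - M * (R - L)) * (R - L) ≤ f R - f L := by
    rcases haL.eq_or_lt with rfl | haL'
    · nlinarith [mul_nonneg hML (by linarith : (0:ℝ) ≤ R - L)]
    · have := backward' hI hf hsup hL hR haL' (hab.trans_le hbR) hM hσ hK
        (s := s - M / 2 * (R - L)) (by nlinarith) h1
      nlinarith [mul_nonneg (mul_nonneg hM.le (sub_nonneg.2 (haL.trans (hab.le.trans hbR))))
        (by linarith : (0:ℝ) ≤ R - a)]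
  have caseB : (s - M * (R - L)) * (R - y) ≤ f R - f y →
      (s - 3 / 2 * M * (R - L)) * (z - y) ≤ f z - f y := by
    intro hB
    rcases hzR.eq_or_lt with rfl | hzR'
    · nlinarith [mul_nonneg hML (sub_nonneg.2 hyz.le)]
    · by_cases hyz' : (s - M * (R - L)) * (z - y) ≤ f z - f y
      · nlinarith [mul_nonneg hML (sub_nonneg.2 hyz.le)]
      · push Not at hyz'
        have hzR2 : (s - M * (R - L)) * (R - z) ≤ f R - f z := by nlinarith
        have := backward' hI hf hsup hyI hR hyz hzR' hM hσ hK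
          (s := s - M * (R - L)) (by nlinarith) hzR2
        nlinarith [mul_nonneg (mul_nonneg hM.le (sub_nonneg.2 hyz.le))
          (by linarith : (0:ℝ) ≤ (R - L) - (R - y))]
  rcases hyL.eq_or_lt with rfl | hyL'
  · exact caseB h2
  · by_cases hLy : (s - M * (R - L)) * (y - L) ≤ f y - f L
    · have := forward' hI hf hsub hL hzI hyL' hyz hM hσ hK
        (s := s - M * (R - L)) (by nlinarith) hLy
      nlinarith [mul_nonneg (mul_nonneg hM.le (sub_nonneg.2 hyz.le))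
        (by linarith : (0:ℝ) ≤ (R - L) - (z - L))]
    · push Not at hLy
      exact caseB (by nlinarith)

lemma key' {f : ℝ → ℝ} {I : Set ℝ} {K : ℝ} (hI : I.OrdConnected) (hf : ContinuousOn f I)
    (hsub : SubK f I K) (hsup : SuperK f I K) (hK0 : 0 < K) {L R s : ℝ} (hL : L ∈ I) (hR : R ∈ I)
    (hs0 : 0 < s) (hl : (R - L) * (32 * K) ≤ s ^ 3)
    {a b : ℝ} (haL : L ≤ a) (hab : a < b) (hbR : b ≤ R) (hs : s * (b - a) ≤ f b - f a)
    {y z : ℝ} (hyL : L ≤ y) (hyz : y < z) (hzR : z ≤ R) :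
    (s - 6 * K * (R - L) / s ^ 2) * (z - y) ≤ f z - f y := by
  have hs2 : 0 < s ^ 2 := by positivity
  have hM : 0 < 4 * K / s ^ 2 := by positivity
  have hMs : 4 * K / s ^ 2 * s ^ 2 = 4 * K := by field_simp
  have h1 : 2 * (4 * K / s ^ 2) * (R - L) ≤ s / 4 := by
    apply le_of_mul_le_mul_right _ hs2
    calc 2 * (4 * K / s ^ 2) * (R - L) * s ^ 2 = 2 * (R - L) * (4 * K / s ^ 2 * s ^ 2) := by ring
      _ = 2 * (R - L) * (4 * K) := by rw [hMs]
      _ ≤ s / 4 * s ^ 2 := by nlinarith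
  have h2 : 3 / 4 * s ≤ s - 2 * (4 * K / s ^ 2) * (R - L) := by linarith
  have h3 : (3 / 4 * s) ^ 2 ≤ (s - 2 * (4 * K / s ^ 2) * (R - L)) ^ 2 :=
    pow_le_pow_left₀ (by positivity) h2 2
  have h4 : K < (s - 2 * (4 * K / s ^ 2) * (R - L)) ^ 2 * (4 * K / s ^ 2) := by
    calc K < 9 / 16 * (4 * K) := by linarith
      _ = 9 / 16 * (4 * K / s ^ 2 * s ^ 2) := by rw [hMs]
      _ = (3 / 4 * s) ^ 2 * (4 * K / s ^ 2) := by ring
      _ ≤ _ := mul_le_mul_of_nonneg_right h3 hM.le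
  have := key hI hf hsub hsup hL hR hM (by linarith) h4 haL hab hbR hs hyL hyz hzR
  have h5 : 3 / 2 * (4 * K / s ^ 2) * (R - L) = 6 * K * (R - L) / s ^ 2 := by ring
  rw [h5] at this
  exact this

lemma slopes_le {f : ℝ → ℝ} {I : Set ℝ} {K : ℝ} (hI : I.OrdConnected) (hf : ContinuousOn f I)
    (hsub : SubK f I K) (hsup : SuperK f I K) (hK0 : 0 < K) {L R ε : ℝ} (hL : L ∈ I) (hR : R ∈ I)
    (hε : 0 < ε) (hl : (R - L) * (256 * K) ≤ ε ^ 3)
    {a b : ℝ} (haL : L ≤ a) (hab : a < b) (hbR : b ≤ R)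
    {y z : ℝ} (hyL : L ≤ y) (hyz : y < z) (hzR : z ≤ R)
    (hpos : ε / 2 < (f b - f a) / (b - a)) :
    (f b - f a) / (b - a) - (f z - f y) / (z - y) ≤ ε := by
  set s := (f b - f a) / (b - a) with hs
  have hba : 0 < b - a := sub_pos.2 hab
  have hzy : 0 < z - y := sub_pos.2 hyz
  have hs0 : 0 < s := by linarith
  have hLR : 0 ≤ R - L := by linarith
  have h1 : (ε / 2) ^ 3 ≤ s ^ 3 := pow_le_pow_left₀ (by positivity) hpos.le 3
  have h2 : (ε / 2) ^ 2 ≤ s ^ 2 := pow_le_pow_left₀ (by positivity) hpos.le 2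
  have hsb : s * (b - a) ≤ f b - f a := by rw [hs]; field_simp; exact le_refl _
  have h3 := key' hI hf hsub hsup hK0 hL hR hs0 (by nlinarith) haL hab hbR hsb hyL hyz hzR
  have h4 : s - 6 * K * (R - L) / s ^ 2 ≤ (f z - f y) / (z - y) := by
    rw [le_div_iff₀ hzy]; exact h3
  have h5 : 6 * K * (R - L) / s ^ 2 ≤ ε := by
    rw [div_le_iff₀ (by positivity)]
    nlinarith [mul_le_mul_of_nonneg_left h2 hε.le]
  linarith

lemma slopes_sub_le {f : ℝ → ℝ} {I : Set ℝ} {K : ℝ} (hI : I.OrdConnected) (hf : ContinuousOn f I)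
    (hsub : SubK f I K) (hsup : SuperK f I K) (hK0 : 0 < K) {L R ε : ℝ} (hL : L ∈ I) (hR : R ∈ I)
    (hε : 0 < ε) (hl : (R - L) * (256 * K) ≤ ε ^ 3)
    {a b : ℝ} (haL : L ≤ a) (hab : a < b) (hbR : b ≤ R)
    {y z : ℝ} (hyL : L ≤ y) (hyz : y < z) (hzR : z ≤ R) :
    (f b - f a) / (b - a) - (f z - f y) / (z - y) ≤ ε := by
  by_contra hcon
  push Not at hcon
  by_cases h1 : ε / 2 < (f b - f a) / (b - a)
  · exact absurd (slopes_le hI hf hsub hsup hK0 hL hR hε hl haL hab hbR hyL hyz hzR h1)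
      (not_le.2 hcon)
  · push Not at h1
    have h2 : ε / 2 < (- f z - - f y) / (z - y) := by
      have : (- f z - - f y) / (z - y) = - ((f z - f y) / (z - y)) := by ring
      rw [this]; linarith
    have h3 := slopes_le (f := fun t => - f t) hI hf.neg hsup.neg hsub.neg hK0 hL hR hε hl
      hyL hyz hzR haL hab hbR h2
    have e1 : (- f z - - f y) / (z - y) = - ((f z - f y) / (z - y)) := by ring
    have e2 : (- f b - - f a) / (b - a) = - ((f b - f a) / (b - a)) := by ring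
    rw [e1, e2] at h3
    linarith

lemma slopes_close {f : ℝ → ℝ} {I : Set ℝ} {K : ℝ} (hI : I.OrdConnected) (hf : ContinuousOn f I)
    (hsub : SubK f I K) (hsup : SuperK f I K) (hK0 : 0 < K) {L R ε : ℝ} (hL : L ∈ I) (hR : R ∈ I)
    (hε : 0 < ε) (hl : (R - L) * (256 * K) ≤ ε ^ 3)
    {a b : ℝ} (haL : L ≤ a) (hab : a < b) (hbR : b ≤ R)
    {y z : ℝ} (hyL : L ≤ y) (hyz : y < z) (hzR : z ≤ R) :
    |(f b - f a) / (b - a) - (f z - f y) / (z - y)| ≤ ε := by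
  rw [abs_le]
  constructor
  · have := slopes_sub_le hI hf hsub hsup hK0 hL hR hε hl hyL hyz hzR haL hab hbR
    linarith
  · exact slopes_sub_le hI hf hsub hsup hK0 hL hR hε hl haL hab hbR hyL hyz hzR

lemma slope_eq_chord (f : ℝ → ℝ) {x t : ℝ} (h : t ≠ x) :
    ∃ a b : ℝ, a < b ∧ min x t ≤ a ∧ b ≤ max x t ∧ slope f x t = (f b - f a) / (b - a) := by
  rcases lt_or_gt_of_ne h with h1 | h1
  · refine ⟨t, x, h1, by simp [h1.le], by simp [h1.le], ?_⟩
    rw [slope_def_field]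
    rw [← neg_div_neg_eq]
    congr 1 <;> ring
  · refine ⟨x, t, h1, by simp [h1.le], by simp [h1.le], ?_⟩
    rw [slope_def_field]

lemma exists_hasDerivAt {f : ℝ → ℝ} {I : Set ℝ} {K : ℝ} (hI : I.OrdConnected) (hIo : IsOpen I)
    (hf : ContinuousOn f I) (hsub : SubK f I K) (hsup : SuperK f I K) (hK0 : 0 < K)
    {x : ℝ} (hx : x ∈ I) : ∃ D, HasDerivAt f D x := by
  simp only [hasDerivAt_iff_tendsto_slope]
  rw [← cauchy_map_iff_exists_tendsto]
  rw [Metric.cauchy_iff]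
  refine ⟨by infer_instance, ?_⟩
  intro ε hε
  obtain ⟨r, hr, hball⟩ := Metric.isOpen_iff.1 hIo x hx
  set δ := min (r / 2) ((ε / 2) ^ 3 / (512 * K)) with hδ
  have hδ0 : 0 < δ := by
    apply lt_min (by positivity) (by positivity)
  have hLI : x - δ ∈ I := hball (by
    rw [Metric.mem_ball, Real.dist_eq]
    have : δ ≤ r / 2 := min_le_left _ _
    rw [abs_lt]; constructor <;> linarith)
  have hRI : x + δ ∈ I := hball (by
    rw [Metric.mem_ball, Real.dist_eq]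
    have : δ ≤ r / 2 := min_le_left _ _
    rw [abs_lt]; constructor <;> linarith)
  have hl : ((x + δ) - (x - δ)) * (256 * K) ≤ (ε / 2) ^ 3 := by
    have h1 : δ ≤ (ε / 2) ^ 3 / (512 * K) := min_le_right _ _
    rw [le_div_iff₀ (by positivity)] at h1
    nlinarith
  refine ⟨slope f x '' (Icc (x - δ) (x + δ) ∩ {x}ᶜ), ?_, ?_⟩
  · apply Filter.image_mem_map
    rw [mem_nhdsWithin_iff_exists_mem_nhds_inter]
    exact ⟨Icc (x - δ) (x + δ), Icc_mem_nhds (by linarith) (by linarith), subset_refl _⟩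
  · rintro _ ⟨t, ⟨ht, htx⟩, rfl⟩ _ ⟨t', ⟨ht', htx'⟩, rfl⟩
    obtain ⟨a, b, hab, ha, hb, e⟩ := slope_eq_chord f htx
    obtain ⟨a', b', hab', ha', hb', e'⟩ := slope_eq_chord f htx'
    rw [e, e', Real.dist_eq]
    have := slopes_close hI hf hsub hsup hK0 hLI hRI (by positivity : 0 < ε / 2) hl
      (a := a) (b := b) (y := a') (z := b')
      (le_trans (le_min (by linarith) ht.1) ha) hab (le_trans hb (max_le (by linarith) ht.2))
      (le_trans (le_min (by linarith) ht'.1) ha') hab' (le_trans hb' (max_le (by linarith) ht'.2))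
    linarith

lemma deriv_ge_of_chords {f : ℝ → ℝ} {x D m L R : ℝ} (hD : HasDerivAt f D x) (hLR : L < R)
    (hx : x ∈ Icc L R)
    (h : ∀ y z, L ≤ y → y < z → z ≤ R → m * (z - y) ≤ f z - f y) : m ≤ D := by
  have hT := hasDerivAt_iff_tendsto_slope.1 hD
  rcases hx.2.eq_or_lt with hxR | hxR
  · have hxL : L < x := by rw [hxR]; exact hLR
    refine ge_of_tendsto (hT.mono_left (nhdsLT_le_nhdsNE x)) ?_
    filter_upwards [Ico_mem_nhdsLT hxL] with t ht
    rw [slope_def_field, ← neg_div_neg_eq, le_div_iff₀ (by linarith [ht.2])]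
    have := h t x ht.1 ht.2 hx.2
    linarith
  · refine ge_of_tendsto (hT.mono_left (nhdsGT_le_nhdsNE x)) ?_
    filter_upwards [Ioc_mem_nhdsGT hxR] with t ht
    rw [slope_def_field, le_div_iff₀ (by linarith [ht.1])]
    exact h x t hx.1 ht.1 ht.2

lemma exists_chord_of_lt_deriv {f : ℝ → ℝ} {x D s L R : ℝ} (hD : HasDerivAt f D x) (hLR : L < R)
    (hx : x ∈ Icc L R) (hs : s < D) :
    ∃ a b, L ≤ a ∧ a < b ∧ b ≤ R ∧ s * (b - a) ≤ f b - f a := by
  have hT := hasDerivAt_iff_tendsto_slope.1 hD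
  rcases hx.2.eq_or_lt with hxR | hxR
  · have hxL : L < x := by rw [hxR]; exact hLR
    have h1 := (hT.mono_left (nhdsLT_le_nhdsNE x)).eventually (lt_mem_nhds hs)
    obtain ⟨t, ht1, ht⟩ := (h1.and (Ico_mem_nhdsLT hxL)).exists
    refine ⟨t, x, ht.1, ht.2, hx.2, ?_⟩
    rw [slope_def_field, ← neg_div_neg_eq, lt_div_iff₀ (by linarith [ht.2])] at ht1
    linarith
  · have h1 := (hT.mono_left (nhdsGT_le_nhdsNE x)).eventually (lt_mem_nhds hs)
    obtain ⟨t, ht1, ht⟩ := (h1.and (Ioc_mem_nhdsGT hxR)).exists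
    refine ⟨x, t, hx.1, ht.1, ht.2, ?_⟩
    rw [slope_def_field, lt_div_iff₀ (by linarith [ht.1])] at ht1
    linarith

lemma deriv_key {f : ℝ → ℝ} {I : Set ℝ} {K : ℝ} (hI : I.OrdConnected) (hf : ContinuousOn f I)
    (hsub : SubK f I K) (hsup : SuperK f I K) (hK0 : 0 < K) {L R : ℝ} (hL : L ∈ I) (hR : R ∈ I)
    (hLR : L < R) {x y D D' : ℝ} (hx : x ∈ Icc L R) (hy : y ∈ Icc L R)
    (hD : HasDerivAt f D x) (hD' : HasDerivAt f D' y) (hD0 : 0 < D)
    (hl : (R - L) * (32 * K) ≤ D ^ 3) :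
    (D - D') * D ^ 2 ≤ 6 * K * (R - L) := by
  have hs2 : 0 < D ^ 2 := by positivity
  set M := 4 * K / D ^ 2 with hMdef
  have hM : 0 < M := by positivity
  have hMs : M * D ^ 2 = 4 * K := by rw [hMdef]; field_simp
  have h1 : 2 * M * (R - L) ≤ D / 4 := by
    apply le_of_mul_le_mul_right _ hs2
    calc 2 * M * (R - L) * D ^ 2 = 2 * (R - L) * (M * D ^ 2) := by ring
      _ = 2 * (R - L) * (4 * K) := by rw [hMs]
      _ ≤ D / 4 * D ^ 2 := by nlinarith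
  have hσK : K < (7 / 10 * D) ^ 2 * M := by
    calc K < 49 / 100 * (4 * K) := by linarith
      _ = 49 / 100 * (M * D ^ 2) := by rw [hMs]
      _ = (7 / 10 * D) ^ 2 * M := by ring
  have main : D - 3 / 2 * M * (R - L) ≤ D' := by
    by_contra hcon
    push Not at hcon
    set s := max (7 / 10 * D + 2 * M * (R - L)) ((D + D' + 3 / 2 * M * (R - L)) / 2) with hs
    have hsD : s < D := max_lt (by linarith) (by linarith)
    have hs1 : 7 / 10 * D + 2 * M * (R - L) ≤ s := le_max_left _ _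
    have hs2' : (D + D' + 3 / 2 * M * (R - L)) / 2 ≤ s := le_max_right _ _
    obtain ⟨a, b, haL, hab, hbR, hchord⟩ := exists_chord_of_lt_deriv hD hLR hx hsD
    have hσ' : 7 / 10 * D ≤ s - 2 * M * (R - L) := by linarith
    have hsq : (7 / 10 * D) ^ 2 ≤ (s - 2 * M * (R - L)) ^ 2 :=
      pow_le_pow_left₀ (by positivity) hσ' 2
    have hall : ∀ y z, L ≤ y → y < z → z ≤ R →
        (s - 3 / 2 * M * (R - L)) * (z - y) ≤ f z - f y := by
      intro y z hyL hyz hzR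
      exact key hI hf hsub hsup hL hR hM (by linarith [mul_pos (by norm_num : (0:ℝ) < 7 / 10) hD0])
        (lt_of_lt_of_le hσK (mul_le_mul_of_nonneg_right hsq hM.le)) haL hab hbR hchord hyL hyz hzR
    have := deriv_ge_of_chords hD' hLR hy hall
    linarith
  calc (D - D') * D ^ 2 ≤ (3 / 2 * M * (R - L)) * D ^ 2 := by
        apply mul_le_mul_of_nonneg_right _ hs2.le
        linarith
    _ = 3 / 2 * (R - L) * (M * D ^ 2) := by ring
    _ = 6 * K * (R - L) := by rw [hMs]; ring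

lemma holder_aux {f : ℝ → ℝ} {I : Set ℝ} {K : ℝ} (hI : I.OrdConnected) (hf : ContinuousOn f I)
    (hsub : SubK f I K) (hsup : SuperK f I K) (hK0 : 0 < K) {L R : ℝ} (hL : L ∈ I) (hR : R ∈ I)
    (hLR : L < R) {x y D D' : ℝ} (hx : x ∈ Icc L R) (hy : y ∈ Icc L R)
    (hD : HasDerivAt f D x) (hD' : HasDerivAt f D' y) (hle : |D'| ≤ D) :
    |D - D'| ^ 3 ≤ 256 * K * (R - L) := by
  have hD0 : 0 ≤ D := le_trans (abs_nonneg _) hle
  have hw0 : 0 ≤ D - D' := by linarith [le_abs_self D']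
  have hw2 : D - D' ≤ 2 * D := by linarith [neg_abs_le D']
  rw [abs_of_nonneg hw0]
  have hKl : 0 ≤ K * (R - L) := mul_nonneg hK0.le (by linarith)
  by_cases hcase : D ^ 3 ≤ (R - L) * (32 * K)
  · calc (D - D') ^ 3 ≤ (2 * D) ^ 3 := pow_le_pow_left₀ hw0 hw2 3
      _ = 8 * D ^ 3 := by ring
      _ ≤ 256 * K * (R - L) := by nlinarith
  · push Not at hcase
    have hDpos : 0 < D := by
      rcases hD0.eq_or_lt with h | h
      · rw [← h] at hcase
        nlinarith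
      · exact h
    have h1 := deriv_key hI hf hsub hsup hK0 hL hR hLR hx hy hD hD' hDpos hcase.le
    have h2 : D - D' ≤ D := by
      by_contra hc
      push Not at hc
      have : D * D ^ 2 < (D - D') * D ^ 2 := mul_lt_mul_of_pos_right hc (by positivity)
      nlinarith
    have h3 : (D - D') ^ 2 ≤ D ^ 2 := pow_le_pow_left₀ hw0 h2 2
    calc (D - D') ^ 3 = (D - D') * (D - D') ^ 2 := by ring
      _ ≤ (D - D') * D ^ 2 := mul_le_mul_of_nonneg_left h3 hw0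
      _ ≤ 6 * K * (R - L) := h1
      _ ≤ 256 * K * (R - L) := by nlinarith

lemma holder_cube {f : ℝ → ℝ} {I : Set ℝ} {K : ℝ} (hI : I.OrdConnected) (hf : ContinuousOn f I)
    (hsub : SubK f I K) (hsup : SuperK f I K) (hK0 : 0 < K) {x y D D' : ℝ} (hx : x ∈ I) (hy : y ∈ I)
    (hD : HasDerivAt f D x) (hD' : HasDerivAt f D' y) :
    |D - D'| ^ 3 ≤ 256 * K * |x - y| := by
  rcases eq_or_ne x y with rfl | hne
  · rw [hD.unique hD']; simp
  have hLR : min x y < max x y := by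
    rcases lt_or_gt_of_ne hne with h | h
    · rw [min_eq_left h.le, max_eq_right h.le]; exact h
    · rw [min_eq_right h.le, max_eq_left h.le]; exact h
  have hLI : min x y ∈ I := by rcases min_choice x y with h | h <;> rw [h] <;> assumption
  have hRI : max x y ∈ I := by rcases max_choice x y with h | h <;> rw [h] <;> assumption
  have hxm : x ∈ Icc (min x y) (max x y) := ⟨min_le_left _ _, le_max_left _ _⟩
  have hym : y ∈ Icc (min x y) (max x y) := ⟨min_le_right _ _, le_max_right _ _⟩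
  have habs : max x y - min x y = |x - y| := max_sub_min_eq_abs' x y
  rw [← habs]
  rcases le_total |D'| |D| with h | h
  · rcases le_total 0 D with h0 | h0
    · rw [abs_of_nonneg h0] at h
      exact holder_aux hI hf hsub hsup hK0 hLI hRI hLR hxm hym hD hD' h
    · rw [abs_of_nonpos h0] at h
      have := holder_aux (f := fun t => - f t) hI hf.neg hsup.neg hsub.neg hK0 hLI hRI hLR hxm hym
        hD.neg hD'.neg (by rwa [abs_neg])
      have e : |-D - -D'| = |D - D'| := by rw [← abs_neg]; congr 1; ring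
      rwa [e] at this
  · rw [abs_sub_comm]
    rcases le_total 0 D' with h0 | h0
    · rw [abs_of_nonneg h0] at h
      exact holder_aux hI hf hsub hsup hK0 hLI hRI hLR hym hxm hD' hD h
    · rw [abs_of_nonpos h0] at h
      have := holder_aux (f := fun t => - f t) hI hf.neg hsup.neg hsub.neg hK0 hLI hRI hLR hym hxm
        hD'.neg hD.neg (by rwa [abs_neg])
      have e : |-D' - -D| = |D' - D| := by rw [← abs_neg]; congr 1; ring
      rwa [e] at this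

lemma SubK.mono {f : ℝ → ℝ} {I : Set ℝ} {K K' : ℝ} (h : SubK f I K) (hK : K ≤ K') :
    SubK f I K' := fun x hx p X hm => le_trans (by linarith) (h x hx p X hm)

lemma SuperK.mono {f : ℝ → ℝ} {I : Set ℝ} {K K' : ℝ} (h : SuperK f I K) (hK : K ≤ K') :
    SuperK f I K' := fun x hx p X hm => le_trans (h x hx p X hm) hK

lemma differentiableOn_of_both {f : ℝ → ℝ} {I : Set ℝ} {K : ℝ} (hI : I.OrdConnected)
    (hIo : IsOpen I) (hf : ContinuousOn f I) (hsub : SubK f I K) (hsup : SuperK f I K)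
    (hK0 : 0 < K) {x : ℝ} (hx : x ∈ I) : DifferentiableAt ℝ f x := by
  obtain ⟨D, hD⟩ := exists_hasDerivAt hI hIo hf hsub hsup hK0 hx
  exact hD.differentiableAt

lemma deriv_holder_cube {f : ℝ → ℝ} {I : Set ℝ} {K : ℝ} (hI : I.OrdConnected)
    (hIo : IsOpen I) (hf : ContinuousOn f I) (hsub : SubK f I K) (hsup : SuperK f I K)
    (hK0 : 0 < K) {x y : ℝ} (hx : x ∈ I) (hy : y ∈ I) :
    |deriv f x - deriv f y| ^ 3 ≤ 256 * K * |x - y| :=
  holder_cube hI hf hsub hsup hK0 hx hy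
    (differentiableOn_of_both hI hIo hf hsub hsup hK0 hx).hasDerivAt
    (differentiableOn_of_both hI hIo hf hsub hsup hK0 hy).hasDerivAt

lemma continuousOn_deriv_of_both {f : ℝ → ℝ} {I : Set ℝ} {K : ℝ} (hI : I.OrdConnected)
    (hIo : IsOpen I) (hf : ContinuousOn f I) (hsub : SubK f I K) (hsup : SuperK f I K)
    (hK0 : 0 < K) : ContinuousOn (deriv f) I := by
  rw [Metric.continuousOn_iff]
  intro x hx ε hε
  refine ⟨ε ^ 3 / (256 * K), by positivity, ?_⟩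
  intro y hy hd
  rw [Real.dist_eq] at hd ⊢
  have h1 := deriv_holder_cube hI hIo hf hsub hsup hK0 hy hx
  rw [lt_div_iff₀ (by positivity)] at hd
  have h2 : |deriv f y - deriv f x| ^ 3 < ε ^ 3 := by nlinarith
  exact lt_of_pow_lt_pow_left₀ 3 hε.le h2

lemma contDiffOn_of_both {f : ℝ → ℝ} {I : Set ℝ} {K : ℝ} (hI : I.OrdConnected)
    (hIo : IsOpen I) (hf : ContinuousOn f I) (hsub : SubK f I K) (hsup : SuperK f I K)
    (hK0 : 0 < K) : ContDiffOn ℝ 1 f I := by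
  rw [contDiffOn_one_iff_derivWithin hIo.uniqueDiffOn]
  refine ⟨fun x hx =>
    (differentiableOn_of_both hI hIo hf hsub hsup hK0 hx).differentiableWithinAt, ?_⟩
  refine (continuousOn_deriv_of_both hI hIo hf hsub hsup hK0).congr ?_
  intro x hx
  exact derivWithin_of_isOpen hIo hx

lemma exists_touch_above {f : ℝ → ℝ} {c ρ Λ : ℝ} (hρ : 0 < ρ) (hΛ : 0 < Λ)
    (hf : ContinuousOn f (Icc (c - ρ) (c + ρ)))
    (hosc : ∀ s ∈ Icc (c - ρ) (c + ρ), ∀ t ∈ Icc (c - ρ) (c + ρ), f s - f t ≤ Λ) :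
    ∃ x ∈ Ioo (c - ρ) (c + ρ), ∃ p X : ℝ,
      IsLocalMax (fun t => f t - (p * (t - x) + X / 2 * (t - x) ^ 2)) x ∧
      p ^ 2 * X ≤ 64 * Λ ^ 3 / ρ ^ 4 := by
  have hcI : c ∈ Icc (c - ρ) (c + ρ) := ⟨by linarith, by linarith⟩
  have hXρ : 4 * Λ / ρ ^ 2 / 2 * ρ ^ 2 = 2 * Λ := by field_simp; ring
  obtain ⟨x, hx, hmax⟩ := exists_interior_max
    (g := fun t => f t - (4 * Λ / ρ ^ 2) / 2 * (t - c) ^ 2) (a := c - ρ) (b := c) (c := c + ρ)
    (by linarith) (by linarith) (hf.sub (by fun_prop))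
    (by
      have := hosc (c - ρ) ⟨le_refl _, by linarith⟩ c hcI
      have e : (c - ρ - c) ^ 2 = ρ ^ 2 := by ring
      simp only [e, hXρ]
      simp only [sub_self]
      nlinarith)
    (by
      have := hosc (c + ρ) ⟨by linarith, le_refl _⟩ c hcI
      have e : (c + ρ - c) ^ 2 = ρ ^ 2 := by ring
      simp only [e, hXρ]
      simp only [sub_self]
      nlinarith)
  refine ⟨x, hx, (4 * Λ / ρ ^ 2) * (x - c), 4 * Λ / ρ ^ 2, ?_, ?_⟩
  · have h2 : ∀ᶠ t in 𝓝 x, f t - (4 * Λ / ρ ^ 2) / 2 * (t - c) ^ 2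
        ≤ f x - (4 * Λ / ρ ^ 2) / 2 * (x - c) ^ 2 := hmax
    show ∀ᶠ t in 𝓝 x, f t - ((4 * Λ / ρ ^ 2) * (x - c) * (t - x) + (4 * Λ / ρ ^ 2) / 2 * (t - x) ^ 2)
      ≤ f x - ((4 * Λ / ρ ^ 2) * (x - c) * (x - x) + (4 * Λ / ρ ^ 2) / 2 * (x - x) ^ 2)
    filter_upwards [h2] with t ht
    nlinarith [ht]
  · have h1 : (x - c) ^ 2 ≤ ρ ^ 2 := by
      apply sq_le_sq'
      · linarith [hx.1]
      · linarith [hx.2]
    have hX : 0 ≤ (4 * Λ / ρ ^ 2) ^ 3 := by positivity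
    calc ((4 * Λ / ρ ^ 2) * (x - c)) ^ 2 * (4 * Λ / ρ ^ 2)
        = (4 * Λ / ρ ^ 2) ^ 3 * (x - c) ^ 2 := by ring
      _ ≤ (4 * Λ / ρ ^ 2) ^ 3 * ρ ^ 2 := mul_le_mul_of_nonneg_left h1 hX
      _ = 64 * Λ ^ 3 / ρ ^ 4 := by field_simp; ring

lemma exists_touch_below {f : ℝ → ℝ} {c ρ Λ : ℝ} (hρ : 0 < ρ) (hΛ : 0 < Λ)
    (hf : ContinuousOn f (Icc (c - ρ) (c + ρ)))
    (hosc : ∀ s ∈ Icc (c - ρ) (c + ρ), ∀ t ∈ Icc (c - ρ) (c + ρ), f s - f t ≤ Λ) :
    ∃ x ∈ Ioo (c - ρ) (c + ρ), ∃ p X : ℝ,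
      IsLocalMin (fun t => f t - (p * (t - x) + X / 2 * (t - x) ^ 2)) x ∧
      -(64 * Λ ^ 3 / ρ ^ 4) ≤ p ^ 2 * X := by
  obtain ⟨x, hx, p, X, hmax, hle⟩ := exists_touch_above (f := fun t => - f t) hρ hΛ hf.neg
    (by
      intro s hs t ht
      have := hosc t ht s hs
      linarith)
  refine ⟨x, hx, -p, -X, ?_, by nlinarith⟩
  have h2 : ∀ᶠ t in 𝓝 x, - f t - (p * (t - x) + X / 2 * (t - x) ^ 2)
      ≤ - f x - (p * (x - x) + X / 2 * (x - x) ^ 2) := hmax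
  show ∀ᶠ t in 𝓝 x, f x - (-p * (x - x) + -X / 2 * (x - x) ^ 2)
      ≤ f t - (-p * (t - x) + -X / 2 * (t - x) ^ 2)
  filter_upwards [h2] with t ht
  nlinarith [ht]

end Vale.Agent.P080
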