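import Mathlib
import Vale.Agent.P080.Defs
import Vale.Agent.P080.OneDim

namespace Vale.Agent.P080

open Set Filter Topology

variable {d : ℕ}

noncomputable def quadTest (b : OrthonormalBasis (Fin d) ℝ (EuclideanSpace ℝ (Fin d)))
    (xs ps Xs : Fin d → ℝ) (y : EuclideanSpace ℝ (Fin d)) : ℝ :=
  ∑ i, (ps i * (inner ℝ (b i) y - xs i) + Xs i / 2 * (inner ℝ (b i) y - xs i) ^ 2)

lemma parab_hasDerivAt (p X x0 t0 : ℝ) :
    HasDerivAt (fun t : ℝ => p * (t - x0) + X / 2 * (t - x0) ^ 2) (p + X * (t0 - x0)) t0 := by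
  have h2 : HasDerivAt (fun t : ℝ => t - x0) 1 t0 := (hasDerivAt_id _).sub_const _
  have h3 := (h2.const_mul p).fun_add ((h2.fun_pow 2).const_mul (X / 2))
  refine h3.congr_deriv ?_
  norm_num
  ring

lemma quadTest_hasFDerivAt (b : OrthonormalBasis (Fin d) ℝ (EuclideanSpace ℝ (Fin d)))
    (xs ps Xs : Fin d → ℝ) (y : EuclideanSpace ℝ (Fin d)) :
    HasFDerivAt (quadTest b xs ps Xs)
      (∑ i, (ps i + Xs i * (inner ℝ (b i) y - xs i)) • innerSL ℝ (b i)) y := by
  unfold quadTest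
  apply HasFDerivAt.fun_sum
  intro i _
  have h4 : HasFDerivAt (fun y : EuclideanSpace ℝ (Fin d) => inner ℝ (b i) y) (innerSL ℝ (b i)) y :=
    (innerSL ℝ (b i)).hasFDerivAt
  exact (parab_hasDerivAt (ps i) (Xs i) (xs i) (inner ℝ (b i) y)).comp_hasFDerivAt y h4

lemma quadTest_fderiv (b : OrthonormalBasis (Fin d) ℝ (EuclideanSpace ℝ (Fin d)))
    (xs ps Xs : Fin d → ℝ) :
    fderiv ℝ (quadTest b xs ps Xs) =
      fun y => ∑ i, (ps i + Xs i * (inner ℝ (b i) y - xs i)) • innerSL ℝ (b i) := by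
  funext y
  exact (quadTest_hasFDerivAt b xs ps Xs y).fderiv

lemma quadTest_hasFDerivAt2 (b : OrthonormalBasis (Fin d) ℝ (EuclideanSpace ℝ (Fin d)))
    (xs ps Xs : Fin d → ℝ) (y : EuclideanSpace ℝ (Fin d)) :
    HasFDerivAt (fun y => ∑ i, (ps i + Xs i * (inner ℝ (b i) y - xs i)) • innerSL ℝ (b i))
      (∑ i, (Xs i • innerSL ℝ (b i)).smulRight (innerSL ℝ (b i))) y := by
  apply HasFDerivAt.fun_sum
  intro i _
  have h4 : HasFDerivAt (fun y : EuclideanSpace ℝ (Fin d) => inner ℝ (b i) y) (innerSL ℝ (b i)) y :=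
    (innerSL ℝ (b i)).hasFDerivAt
  have h5 : HasFDerivAt (fun y : EuclideanSpace ℝ (Fin d) =>
      ps i + Xs i * (inner ℝ (b i) y - xs i)) (Xs i • innerSL ℝ (b i)) y :=
    ((h4.sub_const (xs i)).const_mul (Xs i)).const_add (ps i)
  exact h5.smul_const (innerSL ℝ (b i))

lemma inner_basis_sum (b : OrthonormalBasis (Fin d) ℝ (EuclideanSpace ℝ (Fin d)))
    (xs : Fin d → ℝ) (i : Fin d) : inner ℝ (b i) (∑ j, xs j • b j) = xs i := by
  rw [inner_sum]
  simp [inner_smul_right, OrthonormalBasis.inner_eq_ite]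

lemma toDual_sum (b : OrthonormalBasis (Fin d) ℝ (EuclideanSpace ℝ (Fin d))) (ps : Fin d → ℝ) :
    (InnerProductSpace.toDual ℝ (EuclideanSpace ℝ (Fin d))) (∑ j, ps j • b j) =
    ∑ i, (ps i) • (innerSL ℝ) (b i) := by
  ext v
  simp

lemma quadTest_gradient (b : OrthonormalBasis (Fin d) ℝ (EuclideanSpace ℝ (Fin d)))
    (xs ps Xs : Fin d → ℝ) :
    gradient (quadTest b xs ps Xs) (∑ j, xs j • b j) = ∑ j, ps j • b j := by
  apply HasGradientAt.gradient
  rw [hasGradientAt_iff_hasFDerivAt, toDual_sum]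
  have h := quadTest_hasFDerivAt b xs ps Xs (∑ j, xs j • b j)
  simp only [inner_basis_sum, sub_self, mul_zero, add_zero] at h
  exact h

lemma quadTest_infLap (b : OrthonormalBasis (Fin d) ℝ (EuclideanSpace ℝ (Fin d)))
    (xs ps Xs : Fin d → ℝ) :
    infLap (quadTest b xs ps Xs) (∑ j, xs j • b j) = ∑ i, ps i ^ 2 * Xs i := by
  unfold infLap
  rw [quadTest_gradient, quadTest_fderiv, (quadTest_hasFDerivAt2 b xs ps Xs _).fderiv]
  have : ∀ P : EuclideanSpace ℝ (Fin d),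
      (∑ i, (Xs i • innerSL ℝ (b i)).smulRight (innerSL ℝ (b i))) P P
        = ∑ i, Xs i * (inner ℝ (b i) P) * (inner ℝ (b i) P) := by
    intro P
    simp
  rw [this]
  apply Finset.sum_congr rfl
  intro i _
  rw [inner_basis_sum]
  ring

lemma quadTest_contDiff (b : OrthonormalBasis (Fin d) ℝ (EuclideanSpace ℝ (Fin d)))
    (xs ps Xs : Fin d → ℝ) : ContDiff ℝ 2 (quadTest b xs ps Xs) := by
  unfold quadTest
  have h : ∀ i, ContDiff ℝ 2 (fun y : EuclideanSpace ℝ (Fin d) => inner ℝ (b i) y) :=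
    fun i => (innerSL ℝ (b i)).contDiff
  fun_prop

lemma sub_of_touch {Ω : Set (EuclideanSpace ℝ (Fin d))} {u : EuclideanSpace ℝ (Fin d) → ℝ}
    {f : Fin d → ℝ → ℝ} {b : OrthonormalBasis (Fin d) ℝ (EuclideanSpace ℝ (Fin d))}
    (hΩ : IsOpen Ω) (hu : IsInfHarmonicOn u Ω)
    (hsep : ∀ x ∈ Ω, u x = ∑ i, f i (inner ℝ (b i) x)) (xs ps Xs : Fin d → ℝ)
    (hx : (∑ j, xs j • b j) ∈ Ω)
    (hloc : ∀ i, IsLocalMax (fun t => f i t - (ps i * (t - xs i) + Xs i / 2 * (t - xs i) ^ 2))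
      (xs i)) : 0 ≤ ∑ i, ps i ^ 2 * Xs i := by
  rw [← quadTest_infLap b xs ps Xs]
  apply hu.2.1 _ hx _ (quadTest_contDiff b xs ps Xs).contDiffAt
  show ∀ᶠ y in 𝓝 (∑ j, xs j • b j), u y - quadTest b xs ps Xs y
    ≤ u (∑ j, xs j • b j) - quadTest b xs ps Xs (∑ j, xs j • b j)
  have h1 : ∀ᶠ y in 𝓝 (∑ j, xs j • b j), y ∈ Ω := hΩ.mem_nhds hx
  have h2 : ∀ i, ∀ᶠ y in 𝓝 (∑ j, xs j • b j),
      f i (inner ℝ (b i) y) - (ps i * (inner ℝ (b i) y - xs i)
        + Xs i / 2 * (inner ℝ (b i) y - xs i) ^ 2)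
      ≤ f i (xs i) - (ps i * (xs i - xs i) + Xs i / 2 * (xs i - xs i) ^ 2) := by
    intro i
    have hc : Tendsto (fun y : EuclideanSpace ℝ (Fin d) => inner ℝ (b i) y)
        (𝓝 (∑ j, xs j • b j)) (𝓝 (xs i)) := by
      have := ((innerSL ℝ (b i)).continuous.tendsto (∑ j, xs j • b j))
      simp only [innerSL_apply_apply, inner_basis_sum] at this
      exact this
    exact hc.eventually (hloc i)
  filter_upwards [h1, eventually_all.2 h2] with y hy hall
  rw [hsep y hy, hsep _ hx]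
  unfold quadTest
  rw [← Finset.sum_sub_distrib, ← Finset.sum_sub_distrib]
  apply Finset.sum_le_sum
  intro i _
  simp only [inner_basis_sum]
  exact hall i

lemma super_of_touch {Ω : Set (EuclideanSpace ℝ (Fin d))} {u : EuclideanSpace ℝ (Fin d) → ℝ}
    {f : Fin d → ℝ → ℝ} {b : OrthonormalBasis (Fin d) ℝ (EuclideanSpace ℝ (Fin d))}
    (hΩ : IsOpen Ω) (hu : IsInfHarmonicOn u Ω)
    (hsep : ∀ x ∈ Ω, u x = ∑ i, f i (inner ℝ (b i) x)) (xs ps Xs : Fin d → ℝ)
    (hx : (∑ j, xs j • b j) ∈ Ω)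
    (hloc : ∀ i, IsLocalMin (fun t => f i t - (ps i * (t - xs i) + Xs i / 2 * (t - xs i) ^ 2))
      (xs i)) : ∑ i, ps i ^ 2 * Xs i ≤ 0 := by
  rw [← quadTest_infLap b xs ps Xs]
  apply hu.2.2 _ hx _ (quadTest_contDiff b xs ps Xs).contDiffAt
  show ∀ᶠ y in 𝓝 (∑ j, xs j • b j), u (∑ j, xs j • b j) - quadTest b xs ps Xs (∑ j, xs j • b j)
    ≤ u y - quadTest b xs ps Xs y
  have h1 : ∀ᶠ y in 𝓝 (∑ j, xs j • b j), y ∈ Ω := hΩ.mem_nhds hx
  have h2 : ∀ i, ∀ᶠ y in 𝓝 (∑ j, xs j • b j),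
      f i (xs i) - (ps i * (xs i - xs i) + Xs i / 2 * (xs i - xs i) ^ 2) ≤
      f i (inner ℝ (b i) y) - (ps i * (inner ℝ (b i) y - xs i)
        + Xs i / 2 * (inner ℝ (b i) y - xs i) ^ 2) := by
    intro i
    have hc : Tendsto (fun y : EuclideanSpace ℝ (Fin d) => inner ℝ (b i) y)
        (𝓝 (∑ j, xs j • b j)) (𝓝 (xs i)) := by
      have := ((innerSL ℝ (b i)).continuous.tendsto (∑ j, xs j • b j))
      simp only [innerSL_apply_apply, inner_basis_sum] at this
      exact this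
    exact hc.eventually (hloc i)
  filter_upwards [h1, eventually_all.2 h2] with y hy hall
  rw [hsep y hy, hsep _ hx]
  unfold quadTest
  rw [← Finset.sum_sub_distrib, ← Finset.sum_sub_distrib]
  apply Finset.sum_le_sum
  intro i _
  simp only [inner_basis_sum]
  exact hall i

def frameCube {d : ℕ} (b : OrthonormalBasis (Fin d) ℝ (EuclideanSpace ℝ (Fin d)))
    (z : EuclideanSpace ℝ (Fin d)) (R : ℝ) : Set (EuclideanSpace ℝ (Fin d)) :=
  {x | ∀ i, |inner ℝ (b i) (x - z)| < R}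

lemma isOpen_frameCube (b : OrthonormalBasis (Fin d) ℝ (EuclideanSpace ℝ (Fin d)))
    (z : EuclideanSpace ℝ (Fin d)) (R : ℝ) : IsOpen (frameCube b z R) := by
  unfold frameCube
  simp only [ofPred_forall]
  apply isOpen_iInter_of_finite
  intro i
  apply isOpen_lt _ continuous_const
  have : Continuous (fun x : EuclideanSpace ℝ (Fin d) => innerSL ℝ (b i) (x - z)) := by fun_prop
  exact this.abs

lemma mem_frameCube_iff (b : OrthonormalBasis (Fin d) ℝ (EuclideanSpace ℝ (Fin d)))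
    (z x : EuclideanSpace ℝ (Fin d)) (R : ℝ) :
    x ∈ frameCube b z R ↔ ∀ i, inner ℝ (b i) x ∈ Ioo (inner ℝ (b i) z - R) (inner ℝ (b i) z + R) := by
  unfold frameCube
  simp only [mem_ofPred_eq, inner_sub_right, abs_lt, mem_Ioo]
  constructor
  · intro h i
    constructor <;> linarith [(h i).1, (h i).2]
  · intro h i
    constructor <;> linarith [(h i).1, (h i).2]

lemma sum_mem_frameCube (b : OrthonormalBasis (Fin d) ℝ (EuclideanSpace ℝ (Fin d)))
    (z : EuclideanSpace ℝ (Fin d)) (R : ℝ) (xs : Fin d → ℝ)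
    (h : ∀ i, xs i ∈ Ioo (inner ℝ (b i) z - R) (inner ℝ (b i) z + R)) :
    (∑ j, xs j • b j) ∈ frameCube b z R := by
  rw [mem_frameCube_iff]
  intro i
  rw [inner_basis_sum]
  exact h i

lemma inner_pt (b : OrthonormalBasis (Fin d) ℝ (EuclideanSpace ℝ (Fin d)))
    (z : EuclideanSpace ℝ (Fin d)) (i j : Fin d) (t : ℝ) :
    inner ℝ (b j) (z + (t - inner ℝ (b i) z) • b i) = if j = i then t else inner ℝ (b j) z := by
  rw [inner_add_right, inner_smul_right, OrthonormalBasis.inner_eq_ite]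
  split_ifs with h
  · subst h; ring
  · ring

lemma pt_mem (b : OrthonormalBasis (Fin d) ℝ (EuclideanSpace ℝ (Fin d)))
    (z : EuclideanSpace ℝ (Fin d)) {R : ℝ} (hR : 0 < R) (i : Fin d) {t : ℝ}
    (ht : t ∈ Ioo (inner ℝ (b i) z - R) (inner ℝ (b i) z + R)) :
    z + (t - inner ℝ (b i) z) • b i ∈ frameCube b z R := by
  rw [mem_frameCube_iff]
  intro j
  rw [inner_pt]
  split_ifs with h
  · subst h; exact ht
  · exact ⟨by linarith, by linarith⟩

lemma sep_line {u : EuclideanSpace ℝ (Fin d) → ℝ}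
    {f : Fin d → ℝ → ℝ} {b : OrthonormalBasis (Fin d) ℝ (EuclideanSpace ℝ (Fin d))}
    {z : EuclideanSpace ℝ (Fin d)} {R : ℝ} (hR : 0 < R)
    (hsep : ∀ x ∈ frameCube b z R, u x = ∑ i, f i (inner ℝ (b i) x)) (i : Fin d) {t : ℝ}
    (ht : t ∈ Ioo (inner ℝ (b i) z - R) (inner ℝ (b i) z + R)) :
    u (z + (t - inner ℝ (b i) z) • b i)
      = f i t + ∑ j ∈ Finset.univ.erase i, f j (inner ℝ (b j) z) := by
  rw [hsep _ (pt_mem b z hR i ht), ← Finset.add_sum_erase _ _ (Finset.mem_univ i)]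
  congr 1
  · rw [inner_pt]; simp
  · apply Finset.sum_congr rfl
    intro j hj
    rw [inner_pt, if_neg (Finset.ne_of_mem_erase hj)]

lemma continuousOn_profile {u : EuclideanSpace ℝ (Fin d) → ℝ}
    {f : Fin d → ℝ → ℝ} {b : OrthonormalBasis (Fin d) ℝ (EuclideanSpace ℝ (Fin d))}
    {z : EuclideanSpace ℝ (Fin d)} {R : ℝ} (hR : 0 < R)
    (hu : ContinuousOn u (frameCube b z R))
    (hsep : ∀ x ∈ frameCube b z R, u x = ∑ i, f i (inner ℝ (b i) x)) (i : Fin d) :
    ContinuousOn (f i) (Ioo (inner ℝ (b i) z - R) (inner ℝ (b i) z + R)) := by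
  have h1 : ContinuousOn (fun t : ℝ => u (z + (t - inner ℝ (b i) z) • b i)
      - ∑ j ∈ Finset.univ.erase i, f j (inner ℝ (b j) z))
      (Ioo (inner ℝ (b i) z - R) (inner ℝ (b i) z + R)) := by
    apply ContinuousOn.sub _ continuousOn_const
    apply hu.comp (by fun_prop)
    intro t ht
    exact pt_mem b z hR i ht
  refine h1.congr ?_
  intro t ht
  simp only
  rw [sep_line hR hsep i ht]
  ring

lemma osc_profile {u : EuclideanSpace ℝ (Fin d) → ℝ}
    {f : Fin d → ℝ → ℝ} {b : OrthonormalBasis (Fin d) ℝ (EuclideanSpace ℝ (Fin d))}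
    {z : EuclideanSpace ℝ (Fin d)} {R Λ : ℝ} (hR : 0 < R)
    (hsep : ∀ x ∈ frameCube b z R, u x = ∑ i, f i (inner ℝ (b i) x))
    (hosc : ∀ x ∈ frameCube b z R, ∀ y ∈ frameCube b z R, u x - u y ≤ Λ) (i : Fin d) {s t : ℝ}
    (hs : s ∈ Ioo (inner ℝ (b i) z - R) (inner ℝ (b i) z + R))
    (ht : t ∈ Ioo (inner ℝ (b i) z - R) (inner ℝ (b i) z + R)) : f i s - f i t ≤ Λ := by
  have := hosc _ (pt_mem b z hR i hs) _ (pt_mem b z hR i ht)
  rw [sep_line hR hsep i hs, sep_line hR hsep i ht] at this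
  linarith

lemma subK_profile {u : EuclideanSpace ℝ (Fin d) → ℝ}
    {f : Fin d → ℝ → ℝ} {b : OrthonormalBasis (Fin d) ℝ (EuclideanSpace ℝ (Fin d))}
    {z : EuclideanSpace ℝ (Fin d)} {R Λ : ℝ} (hR : 0 < R) (hΛ : 0 < Λ)
    (hu : IsInfHarmonicOn u (frameCube b z R))
    (hsep : ∀ x ∈ frameCube b z R, u x = ∑ i, f i (inner ℝ (b i) x))
    (hosc : ∀ x ∈ frameCube b z R, ∀ y ∈ frameCube b z R, u x - u y ≤ Λ) (i : Fin d) :
    SubK (f i) (Ioo (inner ℝ (b i) z - R) (inner ℝ (b i) z + R)) (d * (1024 * Λ ^ 3 / R ^ 4)) := by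
  intro x hx p X hmax
  have hsubset : ∀ j, Icc (inner ℝ (b j) z - R / 2) (inner ℝ (b j) z + R / 2) ⊆
      Ioo (inner ℝ (b j) z - R) (inner ℝ (b j) z + R) := by
    intro j t ht
    exact ⟨by linarith [ht.1], by linarith [ht.2]⟩
  have H : ∀ j, ∃ x ∈ Ioo (inner ℝ (b j) z - R / 2) (inner ℝ (b j) z + R / 2), ∃ p X : ℝ,
      IsLocalMax (fun t => f j t - (p * (t - x) + X / 2 * (t - x) ^ 2)) x ∧
      p ^ 2 * X ≤ 64 * Λ ^ 3 / (R / 2) ^ 4 := fun j =>
    exists_touch_above (half_pos hR) hΛ ((continuousOn_profile hR hu.1 hsep j).mono (hsubset j))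
      (fun s hs t ht => osc_profile hR hsep hosc j (hsubset j hs) (hsubset j ht))
  choose xs hxs ps Xs hloc hle using H
  have hk := sub_of_touch (isOpen_frameCube b z R) hu hsep (Function.update xs i x)
    (Function.update ps i p) (Function.update Xs i X)
    (by
      apply sum_mem_frameCube
      intro j
      by_cases hj : j = i
      · subst hj; simpa using hx
      · rw [Function.update_of_ne hj]
        exact hsubset j (Ioo_subset_Icc_self (hxs j)))
    (by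
      intro j
      by_cases hj : j = i
      · subst hj; simpa using hmax
      · simp only [Function.update_of_ne hj]
        exact hloc j)
  rw [← Finset.add_sum_erase _ _ (Finset.mem_univ i)] at hk
  simp only [Function.update_self] at hk
  have hk0 : 64 * Λ ^ 3 / (R / 2) ^ 4 = 1024 * Λ ^ 3 / R ^ 4 := by field_simp; ring
  have hk0pos : 0 ≤ 1024 * Λ ^ 3 / R ^ 4 := by positivity
  have hsum : ∑ j ∈ Finset.univ.erase i, Function.update ps i p j ^ 2 * Function.update Xs i X j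
      ≤ d * (1024 * Λ ^ 3 / R ^ 4) := by
    calc ∑ j ∈ Finset.univ.erase i, Function.update ps i p j ^ 2 * Function.update Xs i X j
        ≤ ∑ j ∈ Finset.univ.erase i, (1024 * Λ ^ 3 / R ^ 4) := by
          apply Finset.sum_le_sum
          intro j hj
          rw [Function.update_of_ne (Finset.ne_of_mem_erase hj),
            Function.update_of_ne (Finset.ne_of_mem_erase hj), ← hk0]
          exact hle j
      _ = ((Finset.univ.erase i).card : ℝ) * (1024 * Λ ^ 3 / R ^ 4) := by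
          rw [Finset.sum_const, nsmul_eq_mul]
      _ ≤ d * (1024 * Λ ^ 3 / R ^ 4) := by
          apply mul_le_mul_of_nonneg_right _ hk0pos
          have : (Finset.univ.erase i).card ≤ d := by
            calc (Finset.univ.erase i).card ≤ (Finset.univ : Finset (Fin d)).card :=
                  Finset.card_le_card (Finset.erase_subset _ _)
              _ = d := by simp
          exact_mod_cast this
  linarith

lemma superK_profile {u : EuclideanSpace ℝ (Fin d) → ℝ}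
    {f : Fin d → ℝ → ℝ} {b : OrthonormalBasis (Fin d) ℝ (EuclideanSpace ℝ (Fin d))}
    {z : EuclideanSpace ℝ (Fin d)} {R Λ : ℝ} (hR : 0 < R) (hΛ : 0 < Λ)
    (hu : IsInfHarmonicOn u (frameCube b z R))
    (hsep : ∀ x ∈ frameCube b z R, u x = ∑ i, f i (inner ℝ (b i) x))
    (hosc : ∀ x ∈ frameCube b z R, ∀ y ∈ frameCube b z R, u x - u y ≤ Λ) (i : Fin d) :
    SuperK (f i) (Ioo (inner ℝ (b i) z - R) (inner ℝ (b i) z + R))
      (d * (1024 * Λ ^ 3 / R ^ 4)) := by
  intro x hx p X hmin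
  have hsubset : ∀ j, Icc (inner ℝ (b j) z - R / 2) (inner ℝ (b j) z + R / 2) ⊆
      Ioo (inner ℝ (b j) z - R) (inner ℝ (b j) z + R) := by
    intro j t ht
    exact ⟨by linarith [ht.1], by linarith [ht.2]⟩
  have H : ∀ j, ∃ x ∈ Ioo (inner ℝ (b j) z - R / 2) (inner ℝ (b j) z + R / 2), ∃ p X : ℝ,
      IsLocalMin (fun t => f j t - (p * (t - x) + X / 2 * (t - x) ^ 2)) x ∧
      -(64 * Λ ^ 3 / (R / 2) ^ 4) ≤ p ^ 2 * X := fun j =>
    exists_touch_below (half_pos hR) hΛ ((continuousOn_profile hR hu.1 hsep j).mono (hsubset j))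
      (fun s hs t ht => osc_profile hR hsep hosc j (hsubset j hs) (hsubset j ht))
  choose xs hxs ps Xs hloc hle using H
  have hk := super_of_touch (isOpen_frameCube b z R) hu hsep (Function.update xs i x)
    (Function.update ps i p) (Function.update Xs i X)
    (by
      apply sum_mem_frameCube
      intro j
      by_cases hj : j = i
      · subst hj; simpa using hx
      · rw [Function.update_of_ne hj]
        exact hsubset j (Ioo_subset_Icc_self (hxs j)))
    (by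
      intro j
      by_cases hj : j = i
      · subst hj; simpa using hmin
      · simp only [Function.update_of_ne hj]
        exact hloc j)
  rw [← Finset.add_sum_erase _ _ (Finset.mem_univ i)] at hk
  simp only [Function.update_self] at hk
  have hk0 : 64 * Λ ^ 3 / (R / 2) ^ 4 = 1024 * Λ ^ 3 / R ^ 4 := by field_simp; ring
  have hk0pos : 0 ≤ 1024 * Λ ^ 3 / R ^ 4 := by positivity
  have hsum : -(d * (1024 * Λ ^ 3 / R ^ 4)) ≤
      ∑ j ∈ Finset.univ.erase i, Function.update ps i p j ^ 2 * Function.update Xs i X j := by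
    calc -(d * (1024 * Λ ^ 3 / R ^ 4))
        ≤ -(((Finset.univ.erase i).card : ℝ) * (1024 * Λ ^ 3 / R ^ 4)) := by
          apply neg_le_neg
          apply mul_le_mul_of_nonneg_right _ hk0pos
          have : (Finset.univ.erase i).card ≤ d := by
            calc (Finset.univ.erase i).card ≤ (Finset.univ : Finset (Fin d)).card :=
                  Finset.card_le_card (Finset.erase_subset _ _)
              _ = d := by simp
          exact_mod_cast this
      _ = ∑ j ∈ Finset.univ.erase i, (-(1024 * Λ ^ 3 / R ^ 4)) := by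
          rw [Finset.sum_const, nsmul_eq_mul]; ring
      _ ≤ _ := by
          apply Finset.sum_le_sum
          intro j hj
          rw [Function.update_of_ne (Finset.ne_of_mem_erase hj),
            Function.update_of_ne (Finset.ne_of_mem_erase hj), ← hk0]
          exact hle j
  linarith

lemma rpow43 {R : ℝ} (hR : 0 ≤ R) : (R ^ (4 / 3 : ℝ)) ^ 3 = R ^ 4 := by
  rw [← Real.rpow_natCast, ← Real.rpow_mul hR]
  norm_num

lemma rpow13 {R : ℝ} (hR : 0 ≤ R) : (R ^ (1 / 3 : ℝ)) ^ 3 = R := by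
  rw [← Real.rpow_natCast, ← Real.rpow_mul hR]
  norm_num

lemma hasGradientAt_sep {Ω : Set (EuclideanSpace ℝ (Fin d))} {u : EuclideanSpace ℝ (Fin d) → ℝ}
    {f : Fin d → ℝ → ℝ} {b : OrthonormalBasis (Fin d) ℝ (EuclideanSpace ℝ (Fin d))}
    (hΩ : IsOpen Ω) (hsep : ∀ x ∈ Ω, u x = ∑ i, f i (inner ℝ (b i) x))
    {x : EuclideanSpace ℝ (Fin d)} (hx : x ∈ Ω)
    (hdiff : ∀ i, DifferentiableAt ℝ (f i) (inner ℝ (b i) x)) :
    HasGradientAt u (∑ i, deriv (f i) (inner ℝ (b i) x) • b i) x := by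
  rw [hasGradientAt_iff_hasFDerivAt, toDual_sum]
  have h : HasFDerivAt (fun y => ∑ i, f i (inner ℝ (b i) y))
      (∑ i, deriv (f i) (inner ℝ (b i) x) • innerSL ℝ (b i)) x := by
    apply HasFDerivAt.fun_sum
    intro i _
    have h4 : HasFDerivAt (fun y : EuclideanSpace ℝ (Fin d) => inner ℝ (b i) y)
        (innerSL ℝ (b i)) x := (innerSL ℝ (b i)).hasFDerivAt
    exact (hdiff i).hasDerivAt.comp_hasFDerivAt x h4
  apply h.congr_of_eventuallyEq
  filter_upwards [hΩ.mem_nhds hx] with y hy using hsep y hy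

lemma norm_sum_smul_le (b : OrthonormalBasis (Fin d) ℝ (EuclideanSpace ℝ (Fin d)))
    (c : Fin d → ℝ) : ‖∑ i, c i • b i‖ ≤ ∑ i, |c i| := by
  refine (norm_sum_le _ _).trans (le_of_eq ?_)
  apply Finset.sum_congr rfl
  intro i _
  rw [norm_smul, b.norm_eq_one, mul_one, Real.norm_eq_abs]

lemma cube_pos {u : EuclideanSpace ℝ (Fin d) → ℝ}
    {f : Fin d → ℝ → ℝ} {b : OrthonormalBasis (Fin d) ℝ (EuclideanSpace ℝ (Fin d))}
    {z : EuclideanSpace ℝ (Fin d)} {R Λ : ℝ} (hR : 0 < R) (hΛ : 0 < Λ)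
    (hu : IsInfHarmonicOn u (frameCube b z R))
    (hsep : ∀ x ∈ frameCube b z R, u x = ∑ i, f i (inner ℝ (b i) x))
    (hosc : ∀ x ∈ frameCube b z R, ∀ y ∈ frameCube b z R, u x - u y ≤ Λ) :
    ContDiffOn ℝ 1 u (frameCube b z R) ∧
    ∀ x ∈ frameCube b z R, ∀ y ∈ frameCube b z R,
      ‖gradient u x - gradient u y‖ ≤
        64 * (d : ℝ) ^ 2 * Λ / R ^ (4 / 3 : ℝ) * ‖x - y‖ ^ (1 / 3 : ℝ) := by
  have hKpos : ∀ _ : Fin d, 0 < (d : ℝ) * (1024 * Λ ^ 3 / R ^ 4) := by
    intro i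
    have : 0 < d := i.pos
    positivity
  have hcont := fun i => continuousOn_profile hR hu.1 hsep i
  have hsub := fun i => subK_profile hR hΛ hu hsep hosc i
  have hsup := fun i => superK_profile hR hΛ hu hsep hosc i
  constructor
  · have h1 : ContDiffOn ℝ 1 (fun x => ∑ i, f i (inner ℝ (b i) x)) (frameCube b z R) := by
      apply ContDiffOn.sum
      intro i _
      have h2 := contDiffOn_of_both ordConnected_Ioo isOpen_Ioo (hcont i) (hsub i) (hsup i)
        (hKpos i)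
      have h3 : ContDiffOn ℝ 1 (fun x : EuclideanSpace ℝ (Fin d) => inner ℝ (b i) x)
          (frameCube b z R) := (innerSL ℝ (b i)).contDiff.contDiffOn
      exact h2.comp h3 (fun x hx => (mem_frameCube_iff b z x R).1 hx i)
    exact h1.congr hsep
  · intro x hx y hy
    have hxi := (mem_frameCube_iff b z x R).1 hx
    have hyi := (mem_frameCube_iff b z y R).1 hy
    have hdx : ∀ i, DifferentiableAt ℝ (f i) (inner ℝ (b i) x) := fun i =>
      differentiableOn_of_both ordConnected_Ioo isOpen_Ioo (hcont i) (hsub i) (hsup i)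
        (hKpos i) (hxi i)
    have hdy : ∀ i, DifferentiableAt ℝ (f i) (inner ℝ (b i) y) := fun i =>
      differentiableOn_of_both ordConnected_Ioo isOpen_Ioo (hcont i) (hsub i) (hsup i)
        (hKpos i) (hyi i)
    rw [(hasGradientAt_sep (isOpen_frameCube b z R) hsep hx hdx).gradient,
      (hasGradientAt_sep (isOpen_frameCube b z R) hsep hy hdy).gradient,
      ← Finset.sum_sub_distrib]
    simp only [← sub_smul]
    refine (norm_sum_smul_le b _).trans ?_
    have hR43 : 0 < R ^ (4 / 3 : ℝ) := Real.rpow_pos_of_pos hR _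
    have hr13 : 0 ≤ ‖x - y‖ ^ (1 / 3 : ℝ) := Real.rpow_nonneg (norm_nonneg _) _
    have hB : ∀ i : Fin d, |deriv (f i) (inner ℝ (b i) x) - deriv (f i) (inner ℝ (b i) y)| ≤
        64 * (d : ℝ) * Λ / R ^ (4 / 3 : ℝ) * ‖x - y‖ ^ (1 / 3 : ℝ) := by
      intro i
      have hd1 : (1 : ℝ) ≤ d := by exact_mod_cast i.pos
      have h1 := deriv_holder_cube ordConnected_Ioo isOpen_Ioo (hcont i) (hsub i) (hsup i)
        (hKpos i) (hxi i) (hyi i)
      have h2 : |inner ℝ (b i) x - inner ℝ (b i) y| ≤ ‖x - y‖ := by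
        rw [← inner_sub_right]
        have := abs_real_inner_le_norm (b i) (x - y)
        rwa [b.norm_eq_one, one_mul] at this
      rw [← pow_le_pow_iff_left₀ (abs_nonneg _) (by positivity) (by norm_num : 3 ≠ 0)]
      have h3 : (64 * (d : ℝ) * Λ / R ^ (4 / 3 : ℝ) * ‖x - y‖ ^ (1 / 3 : ℝ)) ^ 3
          = 262144 * (d : ℝ) ^ 3 * Λ ^ 3 / R ^ 4 * ‖x - y‖ := by
        rw [mul_pow, div_pow, rpow43 hR.le, rpow13 (norm_nonneg _)]
        ring
      rw [h3]
      have hq : 0 ≤ Λ ^ 3 / R ^ 4 := by positivity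
      have hd3 : (d : ℝ) ≤ (d : ℝ) ^ 3 := by nlinarith [mul_nonneg (by linarith : (0:ℝ) ≤ (d:ℝ) - 1) (by linarith : (0:ℝ) ≤ (d:ℝ) + 1)]
      calc |deriv (f i) (inner ℝ (b i) x) - deriv (f i) (inner ℝ (b i) y)| ^ 3
          ≤ 256 * ((d : ℝ) * (1024 * Λ ^ 3 / R ^ 4)) * |inner ℝ (b i) x - inner ℝ (b i) y| := h1
        _ ≤ 256 * ((d : ℝ) * (1024 * Λ ^ 3 / R ^ 4)) * ‖x - y‖ :=
            mul_le_mul_of_nonneg_left h2 (by positivity)
        _ = 262144 * (d : ℝ) * (Λ ^ 3 / R ^ 4) * ‖x - y‖ := by ring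
        _ ≤ 262144 * (d : ℝ) ^ 3 * (Λ ^ 3 / R ^ 4) * ‖x - y‖ := by
            apply mul_le_mul_of_nonneg_right _ (norm_nonneg _)
            apply mul_le_mul_of_nonneg_right _ hq
            linarith
        _ = 262144 * (d : ℝ) ^ 3 * Λ ^ 3 / R ^ 4 * ‖x - y‖ := by ring
    calc ∑ i, |deriv (f i) (inner ℝ (b i) x) - deriv (f i) (inner ℝ (b i) y)|
        ≤ ∑ _i : Fin d, 64 * (d : ℝ) * Λ / R ^ (4 / 3 : ℝ) * ‖x - y‖ ^ (1 / 3 : ℝ) :=
          Finset.sum_le_sum (fun i _ => hB i)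
      _ = 64 * (d : ℝ) ^ 2 * Λ / R ^ (4 / 3 : ℝ) * ‖x - y‖ ^ (1 / 3 : ℝ) := by
          rw [Finset.sum_const, nsmul_eq_mul]
          simp
          ring

end Vale.Agent.P080
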