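import Mathlib
import Vale.Agent.P080.Multi

namespace Vale.Agent.P080

open Set Filter Topology

variable {d : ℕ}

lemma IsInfHarmonicOn.mono {u : EuclideanSpace ℝ (Fin d) → ℝ}
    {Ω Ω' : Set (EuclideanSpace ℝ (Fin d))} (hu : IsInfHarmonicOn u Ω) (h : Ω' ⊆ Ω) :
    IsInfHarmonicOn u Ω' :=
  ⟨hu.1.mono h, fun z hz => hu.2.1 z (h hz), fun z hz => hu.2.2 z (h hz)⟩

lemma norm_le_sum_abs_inner (b : OrthonormalBasis (Fin d) ℝ (EuclideanSpace ℝ (Fin d)))
    (v : EuclideanSpace ℝ (Fin d)) : ‖v‖ ≤ ∑ i, |inner ℝ (b i) v| := by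
  have h := norm_sum_smul_le b (fun i => inner ℝ (b i) v)
  have h2 : ∑ i, inner ℝ (b i) v • b i = v := b.sum_repr' v
  rwa [h2] at h

lemma frameCube_subset_ball (b : OrthonormalBasis (Fin d) ℝ (EuclideanSpace ℝ (Fin d)))
    (z : EuclideanSpace ℝ (Fin d)) {ρ r : ℝ} (hr : 0 < r) (h : d * ρ ≤ r) :
    frameCube b z ρ ⊆ Metric.ball z r := by
  intro x hx
  rw [Metric.mem_ball, dist_eq_norm]
  rcases Nat.eq_zero_or_pos d with hd | hd
  · subst hd
    have : x - z = 0 := Subsingleton.elim _ _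
    rw [this, norm_zero]; exact hr
  · refine lt_of_lt_of_le (lt_of_le_of_lt (norm_le_sum_abs_inner b (x - z)) ?_) h
    calc ∑ i, |inner ℝ (b i) (x - z)| < ∑ _i : Fin d, ρ := by
          apply Finset.sum_lt_sum_of_nonempty
          · exact ⟨⟨0, hd⟩, Finset.mem_univ _⟩
          · intro i _; exact hx i
      _ = d * ρ := by simp

lemma ball_subset_frameCube (b : OrthonormalBasis (Fin d) ℝ (EuclideanSpace ℝ (Fin d)))
    (z : EuclideanSpace ℝ (Fin d)) (ρ : ℝ) : Metric.ball z ρ ⊆ frameCube b z ρ := by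
  intro x hx i
  rw [Metric.mem_ball, dist_eq_norm] at hx
  have := abs_real_inner_le_norm (b i) (x - z)
  rw [b.norm_eq_one, one_mul] at this
  exact lt_of_le_of_lt this hx

lemma cube_main {u : EuclideanSpace ℝ (Fin d) → ℝ}
    {f : Fin d → ℝ → ℝ} {b : OrthonormalBasis (Fin d) ℝ (EuclideanSpace ℝ (Fin d))}
    {z : EuclideanSpace ℝ (Fin d)} {R Λ : ℝ} (hR : 0 < R)
    (hu : IsInfHarmonicOn u (frameCube b z R))
    (hsep : ∀ x ∈ frameCube b z R, u x = ∑ i, f i (inner ℝ (b i) x))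
    (hosc : ∀ x ∈ frameCube b z R, ∀ y ∈ frameCube b z R, u x - u y ≤ Λ) :
    ContDiffOn ℝ 1 u (frameCube b z R) ∧
    ∀ x ∈ frameCube b z R, ∀ y ∈ frameCube b z R,
      ‖gradient u x - gradient u y‖ ≤
        64 * (d : ℝ) ^ 2 * Λ / R ^ (4 / 3 : ℝ) * ‖x - y‖ ^ (1 / 3 : ℝ) := by
  have hz : z ∈ frameCube b z R := by
    intro i; simpa using hR
  have hΛ0 : 0 ≤ Λ := by simpa using hosc z hz z hz
  constructor
  · exact (cube_pos hR (by linarith : 0 < Λ + 1) hu hsep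
      (fun x hx y hy => (hosc x hx y hy).trans (by linarith))).1
  · intro x hx y hy
    apply le_of_forall_pos_le_add
    intro ε hε
    set A := 64 * (d : ℝ) ^ 2 / R ^ (4 / 3 : ℝ) * ‖x - y‖ ^ (1 / 3 : ℝ) with hA
    have hA0 : 0 ≤ A := by
      have := Real.rpow_pos_of_pos hR (4 / 3 : ℝ)
      have := Real.rpow_nonneg (norm_nonneg (x - y)) (1 / 3 : ℝ)
      positivity
    have h1 := (cube_pos hR (by positivity : 0 < Λ + ε / (A + 1)) hu hsep
      (fun x hx y hy => (hosc x hx y hy).trans (by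
        have : 0 ≤ ε / (A + 1) := by positivity
        linarith))).2 x hx y hy
    have h2 : 64 * (d : ℝ) ^ 2 * (Λ + ε / (A + 1)) / R ^ (4 / 3 : ℝ) * ‖x - y‖ ^ (1 / 3 : ℝ)
        = A * Λ + ε * (A / (A + 1)) := by
      rw [hA]; ring
    have h3 : 64 * (d : ℝ) ^ 2 * Λ / R ^ (4 / 3 : ℝ) * ‖x - y‖ ^ (1 / 3 : ℝ) = A * Λ := by
      rw [hA]; ring
    have h4 : A / (A + 1) ≤ 1 := by
      rw [div_le_one (by positivity)]; linarith
    rw [h3]
    rw [h2] at h1
    nlinarith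

lemma contDiffOn_of_sep {Ω : Set (EuclideanSpace ℝ (Fin d))} {u : EuclideanSpace ℝ (Fin d) → ℝ}
    {f : Fin d → ℝ → ℝ} {b : OrthonormalBasis (Fin d) ℝ (EuclideanSpace ℝ (Fin d))}
    (hΩ : IsOpen Ω) (hu : IsInfHarmonicOn u Ω)
    (hsep : ∀ x ∈ Ω, u x = ∑ i, f i (inner ℝ (b i) x)) : ContDiffOn ℝ 1 u Ω := by
  intro x0 hx0
  apply ContDiffAt.contDiffWithinAt
  obtain ⟨r, hr, hball⟩ := Metric.isOpen_iff.1 hΩ x0 hx0
  have hcl : Metric.closedBall x0 (r / 2) ⊆ Ω :=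
    (Metric.closedBall_subset_ball (by linarith)).trans hball
  obtain ⟨C, hC⟩ := (isCompact_closedBall x0 (r / 2)).exists_bound_of_continuousOn (hu.1.mono hcl)
  have hρ : 0 < r / 2 / (d + 1) := by positivity
  have hsubs : frameCube b x0 (r / 2 / (d + 1)) ⊆ Metric.ball x0 (r / 2) := by
    apply frameCube_subset_ball b x0 (by linarith)
    rw [mul_div_assoc', div_le_iff₀ (by positivity)]
    nlinarith
  have hsubs2 : frameCube b x0 (r / 2 / (d + 1)) ⊆ Ω :=
    hsubs.trans (Metric.ball_subset_closedBall.trans hcl)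
  have h := (cube_main (Λ := 2 * C) hρ (hu.mono hsubs2) (fun x hx => hsep x (hsubs2 hx))
    (by
      intro x hx y hy
      have h1 := hC x (Metric.ball_subset_closedBall (hsubs hx))
      have h2 := hC y (Metric.ball_subset_closedBall (hsubs hy))
      rw [Real.norm_eq_abs] at h1 h2
      linarith [le_abs_self (u x), neg_abs_le (u y)])).1
  apply h.contDiffAt
  apply (isOpen_frameCube b x0 _).mem_nhds
  intro i
  simpa using hρ

lemma rpow_algebra {D R r Λ : ℝ} (hD : 0 < D) (hR : 0 < R) (hr : 0 ≤ r) :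
    D * (16 * D ^ 2 * Λ / (R / D) ^ (4 / 3 : ℝ) * (r / D) ^ (1 / 3 : ℝ))
      = 16 * D ^ 4 * Λ / R ^ (4 / 3 : ℝ) * r ^ (1 / 3 : ℝ) := by
  rw [Real.div_rpow hR.le hD.le, Real.div_rpow hr hD.le]
  have h1 : D ^ (4 / 3 : ℝ) = D * D ^ (1 / 3 : ℝ) := by
    rw [show (4 / 3 : ℝ) = 1 + 1 / 3 by norm_num, Real.rpow_add hD, Real.rpow_one]
  rw [h1]
  have h2 : 0 < D ^ (1 / 3 : ℝ) := Real.rpow_pos_of_pos hD _
  have h3 : 0 < R ^ (4 / 3 : ℝ) := Real.rpow_pos_of_pos hR _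
  field_simp

lemma ball_main {u : EuclideanSpace ℝ (Fin d) → ℝ}
    {f : Fin d → ℝ → ℝ} {b : OrthonormalBasis (Fin d) ℝ (EuclideanSpace ℝ (Fin d))}
    {z : EuclideanSpace ℝ (Fin d)} {R Λ : ℝ} (hR : 0 < R)
    (hu : IsInfHarmonicOn u (Metric.ball z R))
    (hsep : ∀ x ∈ Metric.ball z R, u x = ∑ i, f i (inner ℝ (b i) x))
    (hosc : ∀ x ∈ Metric.ball z R, ∀ y ∈ Metric.ball z R, u x - u y ≤ Λ) :
    ∀ x ∈ Metric.ball z (R / 2), ∀ y ∈ Metric.ball z (R / 2),
      ‖gradient u x - gradient u y‖ ≤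
        256 * (d : ℝ) ^ 4 * Λ / R ^ (4 / 3 : ℝ) * ‖x - y‖ ^ (1 / 3 : ℝ) := by
  intro x hx y hy
  rcases Nat.eq_zero_or_pos d with hd | hd
  · subst hd
    have : x = y := Subsingleton.elim _ _
    rw [this]; simp
  have hdR : (0 : ℝ) < d := by exact_mod_cast hd
  set D : ℝ := 2 * d with hD
  have hD0 : 0 < D := by positivity
  set P : ℕ → EuclideanSpace ℝ (Fin d) := fun k => x + ((k : ℝ) / D) • (y - x) with hP
  have hxy : ‖x - y‖ < R := by
    rw [Metric.mem_ball, dist_eq_norm] at hx hy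
    calc ‖x - y‖ = ‖(x - z) - (y - z)‖ := by congr 1; abel
      _ ≤ ‖x - z‖ + ‖y - z‖ := norm_sub_le _ _
      _ < R := by linarith
  have hPmem : ∀ k : ℕ, k ≤ 2 * d → P k ∈ Metric.ball z (R / 2) := by
    intro k hk
    apply (convex_ball z (R / 2)).add_smul_sub_mem hx hy
    constructor
    · positivity
    · rw [div_le_one hD0, hD]; exact_mod_cast hk
  have hstepnorm : ∀ k : ℕ, ‖P k - P (k + 1)‖ = ‖x - y‖ / D := by
    intro k
    have : P k - P (k + 1) = (1 / D) • (x - y) := by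
      simp only [hP]
      rw [show x + ((k : ℝ) / D) • (y - x) - (x + (((k + 1 : ℕ) : ℝ) / D) • (y - x))
        = (((k : ℝ) / D) - (((k + 1 : ℕ) : ℝ) / D)) • (y - x) by rw [sub_smul]; abel]
      rw [show ((k : ℝ) / D) - (((k + 1 : ℕ) : ℝ) / D) = -(1 / D) by push_cast; ring]
      rw [neg_smul, ← smul_neg, neg_sub]
    rw [this, norm_smul, Real.norm_eq_abs, abs_of_pos (by positivity)]
    ring
  have hstep : ∀ k : ℕ, k < 2 * d → dist (gradient u (P k)) (gradient u (P (k + 1))) ≤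
      16 * D ^ 2 * Λ / (R / D) ^ (4 / 3 : ℝ) * (‖x - y‖ / D) ^ (1 / 3 : ℝ) := by
    intro k hk
    have hw := hPmem k hk.le
    have hsub1 : frameCube b (P k) (R / D) ⊆ Metric.ball (P k) (R / 2) := by
      apply frameCube_subset_ball b _ (by linarith)
      rw [hD]
      apply le_of_eq
      field_simp
    have hsub2 : Metric.ball (P k) (R / 2) ⊆ Metric.ball z R := by
      apply Metric.ball_subset_ball'
      rw [Metric.mem_ball] at hw
      linarith
    have hsub := hsub1.trans hsub2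
    have h := (cube_main (Λ := Λ) (by positivity : 0 < R / D) (hu.mono hsub)
      (fun x hx => hsep x (hsub hx)) (fun x hx y hy => hosc x (hsub hx) y (hsub hy))).2
      (P k) (ball_subset_frameCube b _ _ (Metric.mem_ball_self (by positivity)))
      (P (k + 1)) (ball_subset_frameCube b _ _ (by
        rw [Metric.mem_ball, dist_comm, dist_eq_norm, hstepnorm]
        exact div_lt_div_of_pos_right hxy hD0))
    rw [hstepnorm] at h
    rw [dist_eq_norm]
    have e : 64 * (d : ℝ) ^ 2 = 16 * D ^ 2 := by rw [hD]; ring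
    rw [e] at h
    exact h
  have hsum := dist_le_range_sum_dist (fun k => gradient u (P k)) (2 * d)
  have hP0 : P 0 = x := by simp [hP]
  have hPN : P (2 * d) = y := by
    simp only [hP]
    have : (((2 * d : ℕ) : ℝ) / D) = 1 := by
      rw [hD]; push_cast; field_simp
    rw [this, one_smul]; abel
  simp only [hP0, hPN] at hsum
  rw [dist_eq_norm] at hsum
  refine hsum.trans ?_
  calc ∑ k ∈ Finset.range (2 * d), dist (gradient u (P k)) (gradient u (P (k + 1)))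
      ≤ ∑ _k ∈ Finset.range (2 * d),
        16 * D ^ 2 * Λ / (R / D) ^ (4 / 3 : ℝ) * (‖x - y‖ / D) ^ (1 / 3 : ℝ) :=
        Finset.sum_le_sum (fun k hk => hstep k (Finset.mem_range.1 hk))
    _ = D * (16 * D ^ 2 * Λ / (R / D) ^ (4 / 3 : ℝ) * (‖x - y‖ / D) ^ (1 / 3 : ℝ)) := by
        rw [Finset.sum_const, nsmul_eq_mul, Finset.card_range, hD]
        push_cast
        ring
    _ = 16 * D ^ 4 * Λ / R ^ (4 / 3 : ℝ) * ‖x - y‖ ^ (1 / 3 : ℝ) :=
        rpow_algebra hD0 hR (norm_nonneg _)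
    _ = 256 * (d : ℝ) ^ 4 * Λ / R ^ (4 / 3 : ℝ) * ‖x - y‖ ^ (1 / 3 : ℝ) := by
        rw [hD]; ring

end Vale.Agent.P080
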